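import Vale.Agent.P124.Main

namespace Vale.Agent.Results.P124.Counterexample

/-- There are separable real Banach spaces `X`, `Y` that are Lipschitz isomorphic but not
linearly isomorphic. -/
theorem result :
    ∃ (X Y : Type) (_ : NormedAddCommGroup X) (_ : NormedSpace ℝ X) (_ : CompleteSpace X)
      (_ : TopologicalSpace.SeparableSpace X)
      (_ : NormedAddCommGroup Y) (_ : NormedSpace ℝ Y) (_ : CompleteSpace Y)
      (_ : TopologicalSpace.SeparableSpace Y),
      (∃ (f : X → Y) (c C : ℝ), Function.Bijective f ∧ 0 < c ∧ c ≤ C ∧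
        ∀ x x' : X, c * ‖x - x'‖ ≤ ‖f x - f x'‖ ∧ ‖f x - f x'‖ ≤ C * ‖x - x'‖) ∧
      ¬∃ T : X →L[ℝ] Y, Function.Bijective T := by
  refine ⟨Vale.Agent.P124.YY, Vale.Agent.P124.V × Vale.Agent.P124.YY, inferInstance, inferInstance, inferInstance, inferInstance,
    inferInstance, inferInstance, inferInstance, inferInstance,
    ⟨Vale.Agent.P124.gg, 1 / 19, 4, Vale.Agent.P124.gg_bijective, by norm_num, by norm_num, fun x x' => ⟨?_, ?_⟩⟩,
    Vale.Agent.P124.not_iso⟩
  · linarith [Vale.Agent.P124.gg_lower x x']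
  · exact Vale.Agent.P124.gg_upper x x'

end Vale.Agent.Results.P124.Counterexample
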